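import Vale.Agent.P088.R2.H349.J.Spec

/-!
# P088, systems on pairs of points: row (T2G), change of gauge in the identity
-/

open MeasureTheory Set
open scoped ContDiff Matrix

noncomputable section

namespace Vale.Agent.P088.HY.H347

open Vale.Agent.P088.LR Vale.Agent.P088.HY

variable {n N : ℕ}

/-! ## Calculus -/

theorem cd_pd {f : V n → ℝ} (hf : ContDiff ℝ ∞ f) (i : Fin n) : ContDiff ℝ ∞ (pd i f) := by
  unfold pd
  exact (hf.fderiv_right (m := ∞) (by simp)).clm_apply contDiff_const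

theorem dfa {f : V n → ℝ} (hf : ContDiff ℝ ∞ f) (x : V n) : DifferentiableAt ℝ f x :=
  hf.differentiable (by simp) x

theorem pd_mul {f g : V n → ℝ} (hf : ContDiff ℝ ∞ f) (hg : ContDiff ℝ ∞ g) (i : Fin n)
    (x : V n) : pd i (fun y => f y * g y) x = pd i f x * g x + f x * pd i g x := by
  unfold pd
  have h : (fun y => f y * g y) = f * g := rfl
  rw [h, fderiv_mul (dfa hf x) (dfa hg x)]
  simp only [_root_.add_apply, _root_.smul_apply, smul_eq_mul]
  ring

theorem pd_sum {ι : Type*} {s : Finset ι} {f : ι → V n → ℝ} (hf : ∀ q, ContDiff ℝ ∞ (f q))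
    (i : Fin n) (x : V n) : pd i (fun y => ∑ q ∈ s, f q y) x = ∑ q ∈ s, pd i (f q) x := by
  unfold pd
  rw [fderiv_fun_sum fun q _ => dfa (hf q) x]
  simp

theorem pd_sub {f g : V n → ℝ} (hf : ContDiff ℝ ∞ f) (hg : ContDiff ℝ ∞ g) (i : Fin n)
    (x : V n) : pd i (fun y => f y - g y) x = pd i f x - pd i g x := by
  unfold pd
  have h : (fun y => f y - g y) = f - g := rfl
  rw [h, fderiv_sub (dfa hf x) (dfa hg x)]
  simp

/-- `G u`. -/
def mv (G : Mx n N) (u : Fin N → V n → ℝ) (p : Fin N) (x : V n) : ℝ := ∑ q, G x p q * u q x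

theorem cd_mv {G : Mx n N} (hG : ∀ p q, ContDiff ℝ ∞ (fun x => G x p q)) {u : Fin N → V n → ℝ}
    (hu : ∀ p, ContDiff ℝ ∞ (u p)) (p : Fin N) : ContDiff ℝ ∞ (mv G u p) :=
  ContDiff.sum fun q _ => (hG p q).mul (hu q)

theorem pd_mv {G : Mx n N} (hG : ∀ p q, ContDiff ℝ ∞ (fun x => G x p q)) {u : Fin N → V n → ℝ}
    (hu : ∀ p, ContDiff ℝ ∞ (u p)) (i : Fin n) (p : Fin N) (x : V n) :
    pd i (mv G u p) x = ∑ q, (pd i (fun y => G y p q) x * u q x + G x p q * pd i (u q) x) := by
  unfold mv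
  rw [pd_sum fun q => (hG p q).mul (hu q)]
  exact Finset.sum_congr rfl fun q _ => pd_mul (hG p q) (hu q) i x

theorem cd_Dc {A : Cn' n N} (hA : ∀ l p q, ContDiff ℝ ∞ (fun x => A l x p q))
    {u : Fin N → V n → ℝ} (hu : ∀ p, ContDiff ℝ ∞ (u p)) (i : Fin n) (p : Fin N) :
    ContDiff ℝ ∞ (Dc A i u p) :=
  (cd_pd (hu p) i).add (ContDiff.sum fun q _ => (hA i p q).mul (hu q))

/-- `∑_j s_ij D_j u`. -/
def fl (s : MF n) (A : Cn' n N) (u : Fin N → V n → ℝ) (i : Fin n) (q : Fin N) (y : V n) : ℝ :=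
  ∑ j, s y i j * Dc A j u q y

theorem cd_fl {s : MF n} (hs : SmM s) {A : Cn' n N}
    (hA : ∀ l p q, ContDiff ℝ ∞ (fun x => A l x p q))
    {u : Fin N → V n → ℝ} (hu : ∀ p, ContDiff ℝ ∞ (u p)) (i : Fin n) (p : Fin N) :
    ContDiff ℝ ∞ (fl s A u i p) :=
  ContDiff.sum fun j _ => (hs i j).mul (cd_Dc hA hu j p)

/-! ## Change of gauge -/

/-- The gauge intertwines the covariant derivatives. -/
theorem Dc_mv {A₁ A₂ : Cn' n N} {G : Mx n N} (hG : ∀ p q, ContDiff ℝ ∞ (fun x => G x p q))
    (hp : ∀ i x, Dh A₁ A₂ i G x = 0) {u : Fin N → V n → ℝ} (hu : ∀ p, ContDiff ℝ ∞ (u p))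
    (i : Fin n) (p : Fin N) (x : V n) : Dc A₁ i (mv G u) p x = ∑ q, G x p q * Dc A₂ i u q x := by
  have h0 : ∀ q, pd i (fun y => G y p q) x = ∑ r, G x p r * A₂ i x r q -
      ∑ r, A₁ i x p r * G x r q := by
    intro q
    have h := congrFun (congrFun (hp i x) p) q
    simp only [Dh, Matrix.add_apply, Matrix.sub_apply, Matrix.of_apply, Matrix.mul_apply,
      Matrix.zero_apply] at h
    linarith
  unfold Dc
  rw [pd_mv hG hu]
  simp only [h0, mv]
  have e1 : ∀ q, G x p q * (pd i (u q) x + ∑ r, A₂ i x q r * u r x) =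
      G x p q * pd i (u q) x + ∑ r, G x p q * A₂ i x q r * u r x := by
    intro q
    rw [mul_add, Finset.mul_sum]
    congr 1
    exact Finset.sum_congr rfl fun r _ => by ring
  simp only [e1]
  rw [Finset.sum_add_distrib, Finset.sum_add_distrib]
  have e2 : ∑ q, ((∑ r, G x p r * A₂ i x r q) - ∑ r, A₁ i x p r * G x r q) * u q x =
      ∑ q, ∑ r, G x p q * A₂ i x q r * u r x - ∑ q, A₁ i x p q * ∑ r, G x q r * u r x := by
    simp only [sub_mul, Finset.sum_sub_distrib, Finset.sum_mul, Finset.mul_sum]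
    congr 1
    · exact Finset.sum_comm
    · rw [Finset.sum_comm]
      refine Finset.sum_congr rfl fun q _ => Finset.sum_congr rfl fun r _ => ?_
      ring
  rw [e2]
  ring

/-- The gauge intertwines the operators. -/
theorem LA_mv {s : MF n} (hs : SmM s) {A₁ A₂ : Cn' n N}
    (hA₂ : ∀ l p q, ContDiff ℝ ∞ (fun x => A₂ l x p q)) {Q : Mx n N} {G : Mx n N}
    (hG : ∀ p q, ContDiff ℝ ∞ (fun x => G x p q)) (ho : ∀ x, G x * (G x)ᵀ = 1)
    (hp : ∀ i x, Dh A₁ A₂ i G x = 0) {u : Fin N → V n → ℝ} (hu : ∀ p, ContDiff ℝ ∞ (u p))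
    (p : Fin N) (x : V n) :
    LA s A₁ Q (mv G u) p x = ∑ q, G x p q * LA s A₂ (fun x => (G x)ᵀ * Q x * G x) u q x := by
  have e1 : ∀ i, (fun q y => ∑ j, s y i j * Dc A₁ j (mv G u) q y) = mv G (fl s A₂ u i) := by
    intro i
    funext q y
    simp only [mv, fl, Dc_mv hG hp hu, Finset.mul_sum]
    rw [Finset.sum_comm]
    refine Finset.sum_congr rfl fun r _ => Finset.sum_congr rfl fun j _ => ?_
    ring
  have e2 : ∑ q, Q x p q * mv G u q x =
      ∑ q, G x p q * ∑ r, ((G x)ᵀ * Q x * G x) q r * u r x := by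
    have h1 : G x * ((G x)ᵀ * Q x * G x) = Q x * G x := by
      rw [← Matrix.mul_assoc, ← Matrix.mul_assoc, ho, Matrix.one_mul]
    have h2 : ∀ r, ∑ q, G x p q * ((G x)ᵀ * Q x * G x) q r = ∑ q, Q x p q * G x q r := by
      intro r
      rw [← Matrix.mul_apply, h1, Matrix.mul_apply]
    have h3 : ∑ q, G x p q * ∑ r, ((G x)ᵀ * Q x * G x) q r * u r x =
        ∑ r, (∑ q, G x p q * ((G x)ᵀ * Q x * G x) q r) * u r x := by
      simp only [Finset.mul_sum, Finset.sum_mul]
      rw [Finset.sum_comm]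
      exact Finset.sum_congr rfl fun q _ => Finset.sum_congr rfl fun r _ => by ring
    rw [h3]
    simp only [h2, mv, Finset.mul_sum, Finset.sum_mul]
    rw [Finset.sum_comm]
    exact Finset.sum_congr rfl fun q _ => Finset.sum_congr rfl fun r _ => by ring
  unfold LA
  rw [e2]
  have e3 : ∀ i, Dc A₁ i (fun q y => ∑ j, s y i j * Dc A₁ j (mv G u) q y) p x =
      ∑ q, G x p q * Dc A₂ i (fun q y => ∑ j, s y i j * Dc A₂ j u q y) q x := by
    intro i
    rw [e1 i, Dc_mv hG hp (cd_fl hs hA₂ hu i)]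
    rfl
  simp only [e3]
  rw [Finset.sum_comm, ← Finset.sum_sub_distrib]
  refine Finset.sum_congr rfl fun q _ => ?_
  rw [mul_sub]
  congr 1
  rw [Finset.mul_sum]

/-- The transposed gauge intertwines in the other direction. -/
theorem Dh_tr {A₁ A₂ : Cn' n N} (h₁ : ∀ l x, (A₁ l x)ᵀ = -A₁ l x) (h₂ : ∀ l x, (A₂ l x)ᵀ = -A₂ l x)
    {G : Mx n N} (hp : ∀ i x, Dh A₁ A₂ i G x = 0) (i : Fin n) (x : V n) :
    Dh A₂ A₁ i (fun y => (G y)ᵀ) x = 0 := by
  have h := congrArg Matrix.transpose (hp i x)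
  unfold Dh at h ⊢
  rw [Matrix.transpose_sub, Matrix.transpose_add, Matrix.transpose_mul, Matrix.transpose_mul,
    h₁, h₂, Matrix.transpose_zero] at h
  rw [← h]
  have e : (Matrix.of fun p q => pd i (fun y => (G y)ᵀ p q) x) =
      (Matrix.of fun p q => pd i (fun y => G y p q) x)ᵀ := by
    ext p q
    simp [Matrix.transpose_apply]
  rw [e]
  noncomm_ring

/-! ## Functions which vanish off the ball -/

theorem cont_sq : Continuous (sq : V n → ℝ) := by
  unfold sq
  fun_prop

theorem bdd_Bs : ∃ R : ℝ, Bs n (3 / 4) ⊆ Metric.closedBall 0 R := by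
  refine ⟨1, fun x hx => ?_⟩
  have hx' : ∑ j, x j ^ 2 < (3 / 4 : ℝ) ^ 2 := hx
  rw [mem_closedBall_zero_iff, pi_norm_le_iff_of_nonneg zero_le_one]
  intro i
  have h1 : x i ^ 2 ≤ ∑ j, x j ^ 2 :=
    Finset.single_le_sum (f := fun j => x j ^ 2) (fun j _ => sq_nonneg _) (Finset.mem_univ i)
  rw [Real.norm_eq_abs]
  exact abs_le_one_iff_mul_self_le_one.2 (by nlinarith)

theorem cs_of {f : V n → ℝ} (h0 : ∀ x ∉ Bs n (3 / 4), f x = 0) : HasCompactSupport f := by
  obtain ⟨R, hR⟩ := bdd_Bs (n := n)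
  refine HasCompactSupport.intro (isCompact_closedBall 0 R) fun x hx => h0 x fun h => hx (hR h)

theorem pd_off {f : V n → ℝ} (hf : ContDiff ℝ ∞ f) (h0 : ∀ x ∉ Bs n (3 / 4), f x = 0) (i : Fin n)
    {x : V n} (hx : x ∉ Bs n (3 / 4)) : pd i f x = 0 := by
  have hx' : (3 / 4 : ℝ) ^ 2 ≤ sq x := not_lt.1 hx
  have hsq : ∀ t : ℝ, sq (t • x) = t ^ 2 * sq x := by
    intro t
    unfold sq
    rw [Finset.mul_sum]
    exact Finset.sum_congr rfl fun j _ => by simp [mul_pow]
  have hc : Continuous (fun t : ℝ => pd i f (t • x)) :=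
    (cd_pd hf i).continuous.comp (continuous_id.smul continuous_const)
  have h1 : ∀ t : ℝ, 1 < t → pd i f (t • x) = 0 := by
    intro t ht
    have ho : IsOpen {y : V n | (3 / 4 : ℝ) ^ 2 < sq y} := isOpen_lt continuous_const cont_sq
    have hm : t • x ∈ {y : V n | (3 / 4 : ℝ) ^ 2 < sq y} := by
      show (3 / 4 : ℝ) ^ 2 < sq (t • x)
      rw [hsq]
      have : 1 < t ^ 2 := by nlinarith
      nlinarith
    have he : f =ᶠ[nhds (t • x)] fun _ => 0 := by
      filter_upwards [ho.mem_nhds hm] with y hy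
      exact h0 y (not_lt.2 (le_of_lt hy))
    unfold pd
    rw [he.fderiv_eq]
    simp
  have h2 : Filter.Tendsto (fun t : ℝ => pd i f (t • x)) (nhdsWithin 1 (Ioi 1))
      (nhds (pd i f ((1 : ℝ) • x))) := (hc.tendsto 1).mono_left nhdsWithin_le_nhds
  have h3 : Filter.Tendsto (fun t : ℝ => pd i f (t • x)) (nhdsWithin 1 (Ioi 1)) (nhds 0) := by
    refine tendsto_const_nhds.congr' ?_
    filter_upwards [self_mem_nhdsWithin] with t ht
    exact (h1 t ht).symm
  have := tendsto_nhds_unique h2 h3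
  rwa [one_smul] at this

/-- Integration by parts. -/
theorem ibp1 {f w : V n → ℝ} (hf : ContDiff ℝ ∞ f) (hw : ContDiff ℝ ∞ w)
    (h0 : ∀ x ∉ Bs n (3 / 4), f x = 0) (i : Fin n) :
    ∫ x, f x * pd i w x = - ∫ x, pd i f x * w x := by
  have hc : HasCompactSupport f := cs_of h0
  have hc' : HasCompactSupport (pd i f) := cs_of fun x hx => pd_off hf h0 i hx
  refine integral_mul_fderiv_eq_neg_fderiv_mul_of_integrable (f := f) (g := w)
    (v := Pi.single i 1) ?_ ?_ ?_ (fun x _ => dfa hf x) (fun x _ => dfa hw x)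
  · exact ((cd_pd hf i).continuous.mul hw.continuous).integrable_of_hasCompactSupport
      hc'.mul_right
  · exact (hf.continuous.mul (cd_pd hw i).continuous).integrable_of_hasCompactSupport
      hc.mul_right
  · exact (hf.continuous.mul hw.continuous).integrable_of_hasCompactSupport hc.mul_right

/-- The energy density. -/
def en (s : MF n) (A : Cn' n N) (u v : Fin N → V n → ℝ) (x : V n) : ℝ :=
  ∑ i, ∑ j, ∑ p, s x i j * (Dc A i u p x * Dc A j v p x)

/-- The density of the potential. -/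
def po (Q : Mx n N) (u v : Fin N → V n → ℝ) (x : V n) : ℝ :=
  ∑ p, ∑ q, Q x p q * u q x * v p x

theorem cont_Dc {A : Cn' n N} (hA : ∀ l p q, ContDiff ℝ ∞ (fun x => A l x p q))
    {u : Fin N → V n → ℝ} (hu : ∀ p, ContDiff ℝ ∞ (u p)) (i : Fin n) (p : Fin N) :
    Continuous (Dc A i u p) := (cd_Dc hA hu i p).continuous

theorem cont_en {s : MF n} (hs : SmM s) {A : Cn' n N}
    (hA : ∀ l p q, ContDiff ℝ ∞ (fun x => A l x p q)) {u v : Fin N → V n → ℝ}
    (hu : ∀ p, ContDiff ℝ ∞ (u p)) (hv : ∀ p, ContDiff ℝ ∞ (v p)) : Continuous (en s A u v) :=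
  continuous_finsetSum _ fun i _ => continuous_finsetSum _ fun j _ =>
    continuous_finsetSum _ fun p _ => (hs i j).continuous.mul
      ((cont_Dc hA hu i p).mul (cont_Dc hA hv j p))

theorem cont_po {Q : Mx n N} (hQ : ∀ p q, ContDiff ℝ ∞ (fun x => Q x p q))
    {u v : Fin N → V n → ℝ} (hu : ∀ p, ContDiff ℝ ∞ (u p)) (hv : ∀ p, ContDiff ℝ ∞ (v p)) :
    Continuous (po Q u v) :=
  continuous_finsetSum _ fun p _ => continuous_finsetSum _ fun q _ =>
    ((hQ p q).continuous.mul (hu q).continuous).mul (hv p).continuous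

theorem intOn {f : V n → ℝ} (hf : Continuous f) : IntegrableOn f (Bs n (3 / 4)) := by
  obtain ⟨R, hR⟩ := bdd_Bs (n := n)
  exact (hf.continuousOn.integrableOn_compact (isCompact_closedBall 0 R)).mono_set hR

theorem Dc_off {A : Cn' n N} {f : Fin N → V n → ℝ} (hf : ∀ p, ContDiff ℝ ∞ (f p))
    (h0 : ∀ x ∉ Bs n (3 / 4), ∀ p, f p x = 0) (i : Fin n) (p : Fin N)
    {x : V n} (hx : x ∉ Bs n (3 / 4)) : Dc A i f p x = 0 := by
  unfold Dc
  rw [pd_off (hf p) (fun y hy => h0 y hy p) i hx]
  simp [h0 x hx]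

/-- Green's formula for a function which vanishes off the ball. -/
theorem green {s : MF n} (hs : SmM s) {A : Cn' n N} {Q : Mx n N}
    (hA : ∀ l p q, ContDiff ℝ ∞ (fun x => A l x p q)) (hk : ∀ l x, (A l x)ᵀ = -A l x)
    {f u : Fin N → V n → ℝ}
    (hf : ∀ p, ContDiff ℝ ∞ (f p)) (hu : ∀ p, ContDiff ℝ ∞ (u p))
    (h0 : ∀ x ∉ Bs n (3 / 4), ∀ p, f p x = 0)
    (he : ∀ x ∈ Bs n (3 / 4), ∀ p, LA s A Q u p x = 0) :
    ∫ x in Bs n (3 / 4), (en s A f u x + po Q u f x) = 0 := by
  have hw : ∀ i p, ContDiff ℝ ∞ (fl s A u i p) := cd_fl hs hA hu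
  have hsk : ∀ i x p q, A i x p q = -A i x q p := by
    intro i x p q
    have h := congrFun (congrFun (hk i x) q) p
    simpa using h
  -- the integral over `V n`
  have e1 : ∫ x in Bs n (3 / 4), (en s A f u x + po Q u f x) =
      ∫ x, (en s A f u x + po Q u f x) := by
    refine setIntegral_eq_integral_of_forall_compl_eq_zero fun x hx => ?_
    unfold en po
    simp [Dc_off hf h0 _ _ hx, h0 x hx]
  -- the pointwise identity
  have e2 : ∀ x, en s A f u x + po Q u f x =
      ∑ i, ∑ p, (pd i (f p) x * fl s A u i p x + f p x * pd i (fl s A u i p) x) := by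
    intro x
    have h1 : en s A f u x = ∑ i, ∑ p, Dc A i f p x * fl s A u i p x := by
      unfold en fl
      refine Finset.sum_congr rfl fun i _ => ?_
      rw [Finset.sum_comm]
      refine Finset.sum_congr rfl fun p _ => ?_
      rw [Finset.mul_sum]
      exact Finset.sum_congr rfl fun j _ => by ring
    have h2 : po Q u f x = ∑ i, ∑ p, f p x * Dc A i (fl s A u i) p x := by
      by_cases hx : x ∈ Bs n (3 / 4)
      · have h3 : ∀ p, ∑ q, Q x p q * u q x = ∑ i, Dc A i (fl s A u i) p x := by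
          intro p
          have h4 := he x hx p
          unfold LA at h4
          have h5 : ∀ i, (fun q y => ∑ j, s y i j * Dc A j u q y) = fl s A u i := fun i => rfl
          simp only [h5] at h4
          linarith
        rw [Finset.sum_comm]
        unfold po
        refine Finset.sum_congr rfl fun p _ => ?_
        rw [← Finset.mul_sum, ← h3 p, Finset.mul_sum]
        exact Finset.sum_congr rfl fun q _ => by ring
      · unfold po
        simp [h0 x hx]
    rw [h1, h2, ← Finset.sum_add_distrib]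
    refine Finset.sum_congr rfl fun i _ => ?_
    have h3 : ∑ p, (∑ q, A i x p q * f q x) * fl s A u i p x =
        -∑ p, f p x * ∑ q, A i x p q * fl s A u i q x := by
      simp only [Finset.sum_mul, Finset.mul_sum]
      rw [Finset.sum_comm, ← Finset.sum_neg_distrib]
      refine Finset.sum_congr rfl fun p _ => ?_
      rw [← Finset.sum_neg_distrib]
      refine Finset.sum_congr rfl fun q _ => ?_
      rw [hsk i x q p]
      ring
    have h4 : ∑ p, Dc A i f p x * fl s A u i p x = ∑ p, pd i (f p) x * fl s A u i p x +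
        ∑ p, (∑ q, A i x p q * f q x) * fl s A u i p x := by
      rw [← Finset.sum_add_distrib]
      exact Finset.sum_congr rfl fun p _ => by unfold Dc; ring
    have h5 : ∑ p, f p x * Dc A i (fl s A u i) p x = ∑ p, f p x * pd i (fl s A u i p) x +
        ∑ p, f p x * ∑ q, A i x p q * fl s A u i q x := by
      rw [← Finset.sum_add_distrib]
      exact Finset.sum_congr rfl fun p _ => by unfold Dc; ring
    rw [h4, h5, h3, Finset.sum_add_distrib]
    ring
  have hc : ∀ p, HasCompactSupport (f p) := fun p => cs_of fun x hx => h0 x hx p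
  have hc' : ∀ i p, HasCompactSupport (pd i (f p)) := fun i p =>
    cs_of fun x hx => pd_off (hf p) (fun y hy => h0 y hy p) i hx
  have i1 : ∀ i p, Integrable (fun x => pd i (f p) x * fl s A u i p x) := fun i p =>
    ((cd_pd (hf p) i).continuous.mul (hw i p).continuous).integrable_of_hasCompactSupport
      (hc' i p).mul_right
  have i2 : ∀ i p, Integrable (fun x => f p x * pd i (fl s A u i p) x) := fun i p =>
    ((hf p).continuous.mul (cd_pd (hw i p) i).continuous).integrable_of_hasCompactSupport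
      (hc p).mul_right
  have i3 : ∀ i p, Integrable (fun x => pd i (f p) x * fl s A u i p x +
      f p x * pd i (fl s A u i p) x) := fun i p => (i1 i p).add (i2 i p)
  rw [e1]
  simp only [e2]
  rw [integral_finsetSum _ fun i _ => integrable_finsetSum _ fun p _ => i3 i p]
  refine Finset.sum_eq_zero fun i _ => ?_
  rw [integral_finsetSum _ fun p _ => i3 i p]
  refine Finset.sum_eq_zero fun p _ => ?_
  rw [integral_add (i1 i p) (i2 i p),
    ibp1 (hf p) (hw i p) (fun x hx => h0 x hx p) i]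
  ring

theorem en_sub {s : MF n} {A : Cn' n N} {u v w : Fin N → V n → ℝ}
    (hv : ∀ p, ContDiff ℝ ∞ (v p)) (hw : ∀ p, ContDiff ℝ ∞ (w p)) (x : V n) :
    en s A (fun p y => v p y - w p y) u x = en s A v u x - en s A w u x := by
  have h : ∀ i p, Dc A i (fun p y => v p y - w p y) p x = Dc A i v p x - Dc A i w p x := by
    intro i p
    unfold Dc
    rw [pd_sub (hv p) (hw p)]
    simp only [mul_sub, Finset.sum_sub_distrib]
    ring
  unfold en
  simp only [h, ← Finset.sum_sub_distrib]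
  exact Finset.sum_congr rfl fun i _ => Finset.sum_congr rfl fun j _ =>
    Finset.sum_congr rfl fun p _ => by ring

theorem en_symm {s : MF n} (hs : ∀ x, (s x).IsSymm) {A : Cn' n N} {u v : Fin N → V n → ℝ}
    (x : V n) : en s A u v x = en s A v u x := by
  unfold en
  rw [Finset.sum_comm]
  refine Finset.sum_congr rfl fun i _ => Finset.sum_congr rfl fun j _ =>
    Finset.sum_congr rfl fun p _ => ?_
  rw [(hs x).apply i j]
  ring

theorem po_symm {Q : Mx n N} (hQ : ∀ x, (Q x)ᵀ = Q x) {u v : Fin N → V n → ℝ} (x : V n) :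
    po Q u v x = po Q v u x := by
  have h : ∀ p q, Q x p q = Q x q p := by
    intro p q
    have := congrFun (congrFun (hQ x) q) p
    simpa using this
  unfold po
  rw [Finset.sum_comm]
  refine Finset.sum_congr rfl fun p _ => Finset.sum_congr rfl fun q _ => ?_
  rw [h q p]
  ring

/-- (T2G) change of gauge in the identity. -/
theorem rowT2G : RowT2G := by
  intro n N s A₁ A₂ Q₁ Q₂ G hs hsy hA₁ hA₂ hQ₁ hQ₂ hq₁ hq₂ hG _ _ hId u v hu hv hLu hLv
  set Q : Mx n N := fun x => (G x)ᵀ * Q₁ x * G x with hQdef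
  have hGt : ∀ p q, ContDiff ℝ ∞ (fun x => (G x)ᵀ p q) := fun p q => hG.sm q p
  have hQ : ∀ p q, ContDiff ℝ ∞ (fun x => Q x p q) := by
    intro p q
    simp only [hQdef, Matrix.mul_apply, Matrix.transpose_apply]
    exact ContDiff.sum fun r _ => (ContDiff.sum fun t _ => (hG.sm t p).mul (hQ₁ t r)).mul
      (hG.sm r q)
  have hGu : ∀ p, ContDiff ℝ ∞ (mv G u p) := cd_mv hG.sm hu
  have hGv : ∀ p, ContDiff ℝ ∞ (mv (fun x => (G x)ᵀ) v p) := cd_mv hGt hv
  have hto : ∀ x, (G x)ᵀ * G x = 1 := fun x => mul_eq_one_comm.1 (hG.o x)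
  -- the identity for `(G u, v)`
  have h1 := hId (mv G u) v hGu hv (fun x hx p => by
    rw [LA_mv hs hA₂.sm hG.sm hG.o hG.p hu]
    exact Finset.sum_eq_zero fun q _ => by rw [hLu x hx q, mul_zero]) hLv
  -- continuity
  have c1 : Continuous (fun x => en s A₁ (mv G u) v x + po Q₁ (mv G u) v x) :=
    (cont_en hs hA₁.sm hGu hv).add (cont_po hQ₁ hGu hv)
  have c2 : Continuous (fun x => en s A₂ (mv G u) v x + po Q₂ (mv G u) v x) :=
    (cont_en hs hA₂.sm hGu hv).add (cont_po hQ₂ hGu hv)
  have c3 : Continuous (fun x => en s A₂ u v x + po Q u v x) :=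
    (cont_en hs hA₂.sm hu hv).add (cont_po hQ hu hv)
  have c4 : Continuous (fun x => en s A₂ u v x + po Q₂ u v x) :=
    (cont_en hs hA₂.sm hu hv).add (cont_po hQ₂ hu hv)
  have k1 : (∫ x in Bs n (3 / 4), (en s A₁ (mv G u) v x + po Q₁ (mv G u) v x)) -
      ∫ x in Bs n (3 / 4), (en s A₂ (mv G u) v x + po Q₂ (mv G u) v x) = 0 := by
    rw [← integral_sub (intOn c1) (intOn c2), ← h1]
    refine integral_congr_ae (Filter.Eventually.of_forall fun x => ?_)
    simp only [en, po]
    rw [add_sub_add_comm]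
    simp only [← Finset.sum_sub_distrib]
    congr 1
    · exact Finset.sum_congr rfl fun i _ => Finset.sum_congr rfl fun j _ =>
        Finset.sum_congr rfl fun p _ => by ring
    · exact Finset.sum_congr rfl fun p _ => Finset.sum_congr rfl fun q _ => by ring
  -- the first term
  have k2 : ∫ x in Bs n (3 / 4), (en s A₁ (mv G u) v x + po Q₁ (mv G u) v x) =
      ∫ x in Bs n (3 / 4), (en s A₂ u v x + po Q u v x) := by
    have g1 := green hs hA₂.sm hA₂.sk (Q := Q) (f := fun p y => mv (fun x => (G x)ᵀ) v p y - v p y)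
      (fun p => (hGv p).sub (hv p)) hu (fun x hx p => by
        simp only [mv, hG.z x hx, Matrix.transpose_one, Matrix.one_apply]
        simp) hLu
    have c5 : Continuous (fun x => en s A₂ (mv (fun x => (G x)ᵀ) v) u x +
        po Q u (mv (fun x => (G x)ᵀ) v) x) :=
      (cont_en hs hA₂.sm hGv hu).add (cont_po hQ hu hGv)
    have e1 : ∀ x, en s A₁ (mv G u) v x + po Q₁ (mv G u) v x =
        en s A₂ (mv (fun x => (G x)ᵀ) v) u x + po Q u (mv (fun x => (G x)ᵀ) v) x := by
      intro x
      congr 1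
      · rw [en_symm hsy]
        unfold en
        refine Finset.sum_congr rfl fun i _ => Finset.sum_congr rfl fun j _ => ?_
        rw [← Finset.mul_sum, ← Finset.mul_sum]
        congr 1
        have hd : ∀ p, Dc A₂ i (mv (fun x => (G x)ᵀ) v) p x = ∑ q, G x q p * Dc A₁ i v q x :=
          fun p => Dc_mv hGt (Dh_tr hA₁.sk hA₂.sk hG.p) hv i p x
        simp only [hd, Dc_mv hG.sm hG.p hu, Finset.mul_sum, Finset.sum_mul]
        rw [Finset.sum_comm]
        exact Finset.sum_congr rfl fun p _ => Finset.sum_congr rfl fun q _ => by ring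
      · unfold po
        have hd : ∀ p q, ∑ r, G x p r * Q x r q = ∑ r, Q₁ x p r * G x r q := by
          intro p q
          rw [← Matrix.mul_apply, ← Matrix.mul_apply]
          have : G x * Q x = Q₁ x * G x := by
            rw [hQdef]
            show G x * ((G x)ᵀ * Q₁ x * G x) = Q₁ x * G x
            rw [← Matrix.mul_assoc, ← Matrix.mul_assoc, hG.o, Matrix.one_mul]
          rw [this]
        have l : ∑ p, ∑ q, Q₁ x p q * mv G u q x * v p x =
            ∑ p, ∑ q, (∑ r, Q₁ x p r * G x r q) * u q x * v p x := by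
          refine Finset.sum_congr rfl fun p _ => ?_
          simp only [mv, Finset.mul_sum, Finset.sum_mul]
          rw [Finset.sum_comm]
          exact Finset.sum_congr rfl fun q _ => Finset.sum_congr rfl fun r _ => by ring
        have r : ∑ p, ∑ q, Q x p q * u q x * mv (fun x => (G x)ᵀ) v p x =
            ∑ p, ∑ q, (∑ r, G x p r * Q x r q) * u q x * v p x := by
          simp only [mv, Matrix.transpose_apply, Finset.mul_sum, Finset.sum_mul]
          rw [Finset.sum_comm]
          calc _ = ∑ q, ∑ p, ∑ r, Q x p q * u q x * (G x r p * v r x) := rfl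
            _ = ∑ q, ∑ r, ∑ p, Q x p q * u q x * (G x r p * v r x) :=
              Finset.sum_congr rfl fun q _ => Finset.sum_comm
            _ = ∑ r, ∑ q, ∑ p, Q x p q * u q x * (G x r p * v r x) := Finset.sum_comm
            _ = _ := Finset.sum_congr rfl fun p _ => Finset.sum_congr rfl fun q _ =>
              Finset.sum_congr rfl fun r _ => by ring
        rw [l, r]
        simp only [hd]
    have e2 : ∀ x, en s A₂ (mv (fun x => (G x)ᵀ) v) u x + po Q u (mv (fun x => (G x)ᵀ) v) x -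
        (en s A₂ u v x + po Q u v x) =
        en s A₂ (fun p y => mv (fun x => (G x)ᵀ) v p y - v p y) u x +
          po Q u (fun p y => mv (fun x => (G x)ᵀ) v p y - v p y) x := by
      intro x
      rw [en_sub hGv hv, en_symm hsy (u := u) (v := v)]
      have : po Q u (fun p y => mv (fun x => (G x)ᵀ) v p y - v p y) x =
          po Q u (mv (fun x => (G x)ᵀ) v) x - po Q u v x := by
        unfold po
        simp only [mul_sub, Finset.sum_sub_distrib]
      rw [this]
      ring
    simp only [e1]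
    rw [← sub_eq_zero, ← integral_sub (intOn c5) (intOn c3), ← g1]
    exact integral_congr_ae (Filter.Eventually.of_forall e2)
  -- the second term
  have k3 : ∫ x in Bs n (3 / 4), (en s A₂ (mv G u) v x + po Q₂ (mv G u) v x) =
      ∫ x in Bs n (3 / 4), (en s A₂ u v x + po Q₂ u v x) := by
    have g1 := green hs hA₂.sm hA₂.sk (Q := Q₂) (f := fun p y => mv G u p y - u p y)
      (fun p => (hGu p).sub (hu p)) hv (fun x hx p => by
        simp only [mv, hG.z x hx, Matrix.one_apply]
        simp) hLv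
    have e2 : ∀ x, en s A₂ (mv G u) v x + po Q₂ (mv G u) v x -
        (en s A₂ u v x + po Q₂ u v x) =
        en s A₂ (fun p y => mv G u p y - u p y) v x +
          po Q₂ v (fun p y => mv G u p y - u p y) x := by
      intro x
      rw [en_sub hGu hu]
      have : po Q₂ v (fun p y => mv G u p y - u p y) x =
          po Q₂ v (mv G u) x - po Q₂ v u x := by
        unfold po
        simp only [mul_sub, Finset.sum_sub_distrib]
      rw [this, po_symm hq₂ (u := v) (v := mv G u), po_symm hq₂ (u := v) (v := u)]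
      ring
    rw [← sub_eq_zero, ← integral_sub (intOn c2) (intOn c4), ← g1]
    exact integral_congr_ae (Filter.Eventually.of_forall e2)
  rw [k2, k3, ← integral_sub (intOn c3) (intOn c4)] at k1
  rw [← k1]
  refine integral_congr_ae (Filter.Eventually.of_forall fun x => ?_)
  simp only [en, po]
  rw [add_sub_add_comm]
  simp only [← Finset.sum_sub_distrib]
  congr 1
  · exact Finset.sum_congr rfl fun i _ => Finset.sum_congr rfl fun j _ =>
      Finset.sum_congr rfl fun p _ => by ring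
  · exact Finset.sum_congr rfl fun p _ => Finset.sum_congr rfl fun q _ => by ring

end Vale.Agent.P088.HY.H347
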